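import Vale.Agent.Lib.P279.Curve

namespace Vale.Agent.Results.P279.LowDegree

open MvPolynomial Vale.Agent.Lib.P279

theorem result (r : ℕ) :
    ∃ S : Set (MvPolynomial (Fin r × Fin 3) ℂ), S.Countable ∧
      (∀ f ∈ S, f ≠ 0 ∧ IsMultiHomogeneous r f) ∧
      ∀ p : Fin r → Fin 3 → ℂ,
        (∀ f ∈ S, eval (fun ij : Fin r × Fin 3 => p ij.1 ij.2) f ≠ 0) →
        ∀ (d : ℕ) (F : MvPolynomial (Fin 3) ℂ) (m : Fin r → ℕ),
          F ≠ 0 → F.IsHomogeneous d →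
          (∀ i, VanishesToOrder F (p i) (m i)) →
          2 * ∑ i, m i ≤ d * (d + 3) ∧
          (1 ≤ d → (d : ℝ) + 3 < 2 * Real.sqrt (r : ℝ) →
            ((∑ i, m i : ℕ) : ℝ) < (d : ℝ) * Real.sqrt (r : ℝ)) ∧
          (1 ≤ d → 10 ≤ r → (∀ i, m i ≤ 1) →
            ((∑ i, m i : ℕ) : ℝ) < (d : ℝ) * Real.sqrt (r : ℝ)) := by
  classical
  refine ⟨{f | f ≠ 0 ∧ ∃ (d : ℕ) (e : Mon d → Fin r × List (Fin 3)), fatDet d r e = f},
    ?_, ?_, ?_⟩
  · have hsub : {f : MvPolynomial (Fin r × Fin 3) ℂ | f ≠ 0 ∧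
        ∃ (d : ℕ) (e : Mon d → Fin r × List (Fin 3)), fatDet d r e = f} ⊆
        ⋃ d : ℕ, Set.range (fun e : Mon d → Fin r × List (Fin 3) => fatDet d r e) := by
      rintro f ⟨-, d, e, rfl⟩
      exact Set.mem_iUnion.2 ⟨d, e, rfl⟩
    exact (Set.countable_iUnion (fun d => Set.countable_range _)).mono hsub
  · rintro f ⟨hf0, d, e, rfl⟩
    exact ⟨hf0, fatDet_isMultiHomogeneous d r e⟩
  · intro p hp d F m hF0 hF hv
    have hmain : 2 * ∑ i, m i ≤ d * (d + 3) := by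
      by_contra hcon
      have h0 : ∀ G : MvPolynomial (Fin 3) ℂ, G.IsHomogeneous d →
          (∀ i, VanishesToOrder G (specialPt d r i) (m i)) → G = 0 := by
        intro G hG hGv
        by_contra hG0
        exact hcon (special_bound d r m hG hG0 hGv)
      obtain ⟨e, he, hne⟩ := exists_fatDet_ne_zero d r m (specialPt d r) h0
      exact hp _ ⟨hne, d, e, rfl⟩ (eval_fatDet_eq_zero m p hF hF0 hv e he)
    have hs0 : (0 : ℝ) ≤ Real.sqrt (r : ℝ) := Real.sqrt_nonneg _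
    have hM : 2 * ((∑ i, m i : ℕ) : ℝ) ≤ (d : ℝ) * ((d : ℝ) + 3) := by exact_mod_cast hmain
    refine ⟨hmain, fun hd hlow => ?_, fun hd hr hm => ?_⟩
    · have hd1 : (1 : ℝ) ≤ (d : ℝ) := by exact_mod_cast hd
      nlinarith
    · have hd1 : (1 : ℝ) ≤ (d : ℝ) := by exact_mod_cast hd
      have hss : Real.sqrt (r : ℝ) * Real.sqrt (r : ℝ) = (r : ℝ) :=
        Real.mul_self_sqrt (Nat.cast_nonneg r)
      have hs3 : (3 : ℝ) < Real.sqrt (r : ℝ) := by
        rw [Real.lt_sqrt (by norm_num)]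
        have : (10 : ℝ) ≤ (r : ℝ) := by exact_mod_cast hr
        linarith
      have hsum : ∑ i, m i ≤ r := by
        calc ∑ i, m i ≤ ∑ _i : Fin r, 1 := Finset.sum_le_sum (fun i _ => hm i)
          _ = r := by simp
      have hZr : ((∑ i, m i : ℕ) : ℝ) ≤ (r : ℝ) := by exact_mod_cast hsum
      rcases le_or_gt (d : ℝ) (Real.sqrt (r : ℝ)) with hcase | hcase
      · nlinarith
      · nlinarith

end Vale.Agent.Results.P279.LowDegree
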