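import Vale.Agent.Lib.P279.Simple

namespace Vale.Agent.Results.P279.SimplePoints

open MvPolynomial Vale.Agent.Lib.P279

/-- `F` vanishes to order at least `m` at `x`: every partial derivative of `F` of order
less than `m` vanishes at `x`. -/
def VanishesToOrder (F : MvPolynomial (Fin 3) ℂ) (x : Fin 3 → ℂ) (m : ℕ) : Prop :=
  ∀ l : List (Fin 3), l.length < m → eval x (l.foldr (fun i G => pderiv i G) F) = 0

/-- A polynomial in the `3 * r` homogeneous coordinates of `r` points is multihomogeneous: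
it is homogeneous of some degree `e i` in the three coordinates of the `i`-th point. -/
def IsMultiHomogeneous (r : ℕ) (f : MvPolynomial (Fin r × Fin 3) ℂ) : Prop :=
  ∃ e : Fin r → ℕ, ∀ (c : Fin r → ℂ) (p : Fin r → Fin 3 → ℂ),
    eval (fun ij : Fin r × Fin 3 => c ij.1 * p ij.1 ij.2) f =
      (∏ i, c i ^ e i) * eval (fun ij : Fin r × Fin 3 => p ij.1 ij.2) f

theorem result (r : ℕ) (hr : 10 ≤ r) :
    ∃ S : Set (MvPolynomial (Fin r × Fin 3) ℂ), S.Countable ∧
      (∀ f ∈ S, f ≠ 0 ∧ IsMultiHomogeneous r f) ∧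
      ∀ p : Fin r → Fin 3 → ℂ,
        (∀ f ∈ S, eval (fun ij : Fin r × Fin 3 => p ij.1 ij.2) f ≠ 0) →
        ∀ (d : ℕ) (F : MvPolynomial (Fin 3) ℂ) (m : Fin r → ℕ),
          1 ≤ d → F ≠ 0 → F.IsHomogeneous d →
          (∀ i, m i ≤ 1) → (∀ i, VanishesToOrder F (p i) (m i)) →
          ((∑ i, m i : ℕ) : ℝ) < (d : ℝ) * Real.sqrt (r : ℝ) := by
  classical
  refine ⟨⋃ d : ℕ, Set.range (fun e : {e : Mon d → Fin r // Function.Injective e} =>
      detPoly d r e.1), ?_, ?_, ?_⟩
  · exact Set.countable_iUnion (fun d => Set.countable_range _)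
  · intro f hf
    obtain ⟨d, ⟨e, he⟩, rfl⟩ := Set.mem_iUnion.1 hf
    exact ⟨detPoly_ne_zero d r e he, fun i => if i ∈ Set.range e then d else 0,
      fun c p => eval_detPoly_smul d r e he c p⟩
  · intro p hp d F m hd hF0 hF hm hv
    have hp' : ∀ (d : ℕ) (e : Mon d → Fin r), Function.Injective e →
        eval (fun ij : Fin r × Fin 3 => p ij.1 ij.2) (detPoly d r e) ≠ 0 :=
      fun d e he => hp _ (Set.mem_iUnion.2 ⟨d, ⟨e, he⟩, rfl⟩)
    have hlt := card_zeros_lt p hp' hF hF0
    have hcard := card_mon d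
    set Z := Finset.univ.filter (fun i => eval (p i) F = 0) with hZ
    have hsum : ∑ i, m i ≤ Z.card := by
      rw [hZ, Finset.card_filter]
      apply Finset.sum_le_sum
      intro i _
      by_cases hi : m i = 0
      · rw [hi]; exact Nat.zero_le _
      · have h1 : m i = 1 := le_antisymm (hm i) (Nat.one_le_iff_ne_zero.2 hi)
        have h2 : eval (p i) F = 0 := by
          have := hv i [] (by rw [h1]; exact Nat.zero_lt_one)
          simpa using this
        rw [h1, if_pos h2]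
    have hZr : Z.card ≤ r := by
      have := Finset.card_filter_le (Finset.univ : Finset (Fin r)) (fun i => eval (p i) F = 0)
      simpa using this
    have hk2 : 2 * Z.card + 2 ≤ (d + 1) * (d + 2) := by omega
    have hs0 : (0 : ℝ) ≤ Real.sqrt (r : ℝ) := Real.sqrt_nonneg _
    have hss : Real.sqrt (r : ℝ) * Real.sqrt (r : ℝ) = (r : ℝ) :=
      Real.mul_self_sqrt (Nat.cast_nonneg r)
    have hs3 : (3 : ℝ) < Real.sqrt (r : ℝ) := by
      rw [Real.lt_sqrt (by norm_num)]
      have : (10 : ℝ) ≤ (r : ℝ) := by exact_mod_cast hr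
      linarith
    have hd1 : (1 : ℝ) ≤ (d : ℝ) := by exact_mod_cast hd
    have hM : ((∑ i, m i : ℕ) : ℝ) ≤ (Z.card : ℝ) := by exact_mod_cast hsum
    have hZr' : (Z.card : ℝ) ≤ (r : ℝ) := by exact_mod_cast hZr
    have hk2' : 2 * (Z.card : ℝ) + 2 ≤ ((d : ℝ) + 1) * ((d : ℝ) + 2) := by exact_mod_cast hk2
    refine lt_of_le_of_lt hM ?_
    rcases le_or_gt (d : ℝ) (Real.sqrt (r : ℝ)) with hcase | hcase
    · nlinarith
    · nlinarith

end Vale.Agent.Results.P279.SimplePoints
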